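import Vale.Agent.P256.Main

open Vale.Agent.P256 in
/-- The projected Lax conjecture fails: some hyperbolicity cone is not a spectrahedral shadow. -/
theorem Vale.Agent.Results.P256.Full.result :
    ∃ (n : ℕ) (p : MvPolynomial (Fin n) ℝ) (e : Fin n → ℝ),
      IsHyperbolic p e ∧ ¬ IsSpectrahedralShadow (hypCone p e) :=
  exists_hyperbolic_not_shadow
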